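import Vale.Agent.Lib.P333.Order

/-!
Analysis of the superstring algorithm: take a minimum weight cycle cover, open every cycle at its
weakest arc, and merge the opened cycles along an order whose total overlap is within a factor `δ`
of the best order. The result is a superstring at most `3 - δ` times longer than any superstring.
-/

namespace Vale.Agent.Results.P333.A0_order

open Vale.Agent.Lib.P333

/-- A family `s` of nonempty strings, none a factor of another; `σ` a permutation of minimum weight
`C = coverCost s σ = ∑ i, (|s i| - ov (s i) (s (σ i)))`; `cut` picks in each cycle of `σ` an arc of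
smallest overlap, and `opened s σ cut X` merges the strings of the cycle `X` along `σ`, starting
right after that arc. An order is a list without repetition of all cycles; `mergeAll` merges along
it and `pathOv` is its total overlap. -/
theorem result {α ι : Type*} [DecidableEq α] [Fintype ι] [DecidableEq ι]
    (s : ι → List α) (hne : ∀ i, s i ≠ []) (hfree : ∀ i j, i ≠ j → ¬ s i <:+: s j)
    (σ : Equiv.Perm ι) (hσ : IsMinCover s σ)
    (cut : Finset ι → ι) (hcut : IsWeakestCut s σ cut) :
    -- each opened cycle contains the strings of its cycle, with the length one expects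
    (∀ X ∈ cycles σ, (∀ i ∈ X, s i <:+: opened s σ cut X) ∧
      (opened s σ cut X).length = period s σ X + ov (s (cut X)) (s (σ (cut X)))) ∧
    -- the opened cycles again are pairwise factor free
    (∀ X ∈ cycles σ, ∀ Y ∈ cycles σ, X ≠ Y → ¬ opened s σ cut X <:+: opened s σ cut Y) ∧
    -- for every common superstring `Ω`:
    (∀ Ω : List α, IsSuperstring s Ω →
      coverCost s σ ≤ Ω.length ∧
      ∑ X ∈ cycles σ, (ov (s (cut X)) (s (σ (cut X))) + 2 - period s σ X) ≤ Ω.length ∧
      ∑ X ∈ cycles σ, (opened s σ cut X).length + 2 * (cycles σ).card ≤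
        Ω.length + 2 * coverCost s σ ∧
      ∃ Ω' : List α, (∀ X ∈ cycles σ, opened s σ cut X <:+: Ω') ∧
        Ω'.length ≤ Ω.length + coverCost s σ) ∧
    -- merging along a `δ`-approximately best order gives a `(3 - δ)`-short superstring
    (∀ δ : ℚ, 0 ≤ δ → δ ≤ 1 → ∀ L : List (Finset ι), L.Nodup → L.toFinset = cycles σ →
      (∀ L' : List (Finset ι), L'.Nodup → L'.toFinset = cycles σ →
        δ * (pathOv (L'.map (opened s σ cut)) : ℚ) ≤ (pathOv (L.map (opened s σ cut)) : ℚ)) →
      IsSuperstring s (mergeAll (L.map (opened s σ cut))) ∧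
      ∀ Ω : List α, IsSuperstring s Ω →
        ((mergeAll (L.map (opened s σ cut))).length : ℚ) ≤ (3 - δ) * (Ω.length : ℚ)) :=
  ⟨fun _ hX => opened_spec hne hcut hX,
    fun _ hX _ hY hXY => opened_not_infix hne hfree hσ hcut hX hY hXY,
    fun _ hΩ => ⟨coverCost_le_length hne hfree hσ hΩ, sum_overlap_le hne hfree hσ hcut hΩ,
      sum_opened_le hne hfree hσ hcut hΩ, exists_superstring_opened hne hfree hcut hΩ⟩,
    fun δ h0 h1 L hnd hL hbest => merge_order_bound hne hfree hσ hcut δ h0 h1 L hnd hL hbest⟩

end Vale.Agent.Results.P333.A0_order
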