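import Vale.Agent.Lib.P333F.StrSpec
import Vale.Agent.Lib.P333F.PTStr

/-!
A polynomial time approximation algorithm with ratio `32/13` for the shortest common superstring
problem. `PT` is polynomial time on encodings: computed by a program on seven stacks in a number of
steps polynomial in the length of the encoding of the input, with unary numbers and letters
encoded as binary trees.
-/

namespace Vale.Agent.Results.P333.A1_poly

open Vale.Agent.Lib.P310.M

/-- For every alphabet there is a polynomial time function `A` sending each finite list of strings
`S` to a common superstring of `S` whose length is at most `32/13` times the length of every common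
superstring of `S`. -/
theorem result (α : Type) [Enc α] [DecidableEq α] :
    ∃ A : List (List α) → List α, PT A ∧
      ∀ S : List (List α), (∀ s ∈ S, s <:+: A S) ∧
        ∀ T : List α, (∀ s ∈ S, s <:+: T) → 13 * (A S).length ≤ 32 * T.length :=
  ⟨Vale.Agent.Lib.P333F.scsAlg, Vale.Agent.Lib.P333F.scsAlg_pt, Vale.Agent.Lib.P333F.scsAlg_spec⟩

end Vale.Agent.Results.P333.A1_poly
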