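import Vale.Agent.Lib.P333G.Final

/-!
For every `ε > 0` a polynomial time approximation algorithm with ratio `7/3 + ε` for the shortest
common superstring problem; so the approximation threshold is at most `7/3`. `PT` is polynomial
time on encodings: computed by a program on seven stacks in a number of steps polynomial in the
length of the encoding of the input, with unary numbers and letters encoded as binary trees.
-/

namespace Vale.Agent.Results.P333.A2_seven_thirds

open Vale.Agent.Lib.P310.M

/-- For every alphabet and every `ε > 0` there is a polynomial time function `A` sending each finite
list of strings `S` to a common superstring of `S` of length at most `7/3 + ε` times the length of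
every common superstring of `S`. -/
theorem result (α : Type) [Enc α] [DecidableEq α] (ε : ℚ) (hε : 0 < ε) :
    ∃ A : List (List α) → List α, PT A ∧
      ∀ S : List (List α), (∀ s ∈ S, s <:+: A S) ∧
        ∀ T : List α, (∀ s ∈ S, s <:+: T) → ((A S).length : ℚ) ≤ (7 / 3 + ε) * T.length :=
  Vale.Agent.Lib.P333G.exists_alg ε hε

end Vale.Agent.Results.P333.A2_seven_thirds
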