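import Vale.Agent.Lib.P333.Bound

/-!
Opening the cycles of a minimum cycle cover at their weakest arcs: the sum of the lengths of the
opened cycles is at most `|Ω| + 2 C`, and a superstring of them costs at most `|Ω| + C`. Hence any
`δ`-approximation of the compression on the opened cycles gives length at most `(3 - δ) |Ω|`.
-/

namespace Vale.Agent.Results.P333.A_main

open Vale.Agent.Lib.P333

/-- A family `s` of nonempty strings, none a factor of another; `σ` a permutation of minimum weight
`C = coverCost s σ = ∑ i, (|s i| - ov (s i) (s (σ i)))`; `cut` picks in each cycle of `σ` an arc of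
smallest overlap, and `opened s σ cut X` merges the strings of the cycle `X` along `σ`, starting
right after that arc. -/
theorem result {α ι : Type*} [DecidableEq α] [Fintype ι] [DecidableEq ι]
    (s : ι → List α) (hne : ∀ i, s i ≠ []) (hfree : ∀ i j, i ≠ j → ¬ s i <:+: s j)
    (σ : Equiv.Perm ι) (hσ : IsMinCover s σ)
    (cut : Finset ι → ι) (hcut : IsWeakestCut s σ cut) :
    -- each opened cycle contains the strings of its cycle, with the length one expects
    (∀ X ∈ cycles σ, (∀ i ∈ X, s i <:+: opened s σ cut X) ∧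
      (opened s σ cut X).length = period s σ X + ov (s (cut X)) (s (σ (cut X)))) ∧
    -- for every common superstring `Ω`:
    (∀ Ω : List α, IsSuperstring s Ω →
      coverCost s σ ≤ Ω.length ∧
      ∑ X ∈ cycles σ, (ov (s (cut X)) (s (σ (cut X))) + 2 - period s σ X) ≤ Ω.length ∧
      ∑ X ∈ cycles σ, (opened s σ cut X).length + 2 * (cycles σ).card ≤
        Ω.length + 2 * coverCost s σ ∧
      ∃ Ω' : List α, (∀ X ∈ cycles σ, opened s σ cut X <:+: Ω') ∧
        Ω'.length ≤ Ω.length + coverCost s σ) ∧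
    -- any string with a `δ`-approximate compression on the opened cycles is `(3 - δ)`-short
    (∀ δ : ℚ, 0 ≤ δ → δ ≤ 1 → ∀ A : List α, (∀ X ∈ cycles σ, opened s σ cut X <:+: A) →
      (∀ Ω' : List α, (∀ X ∈ cycles σ, opened s σ cut X <:+: Ω') →
        (A.length : ℚ) ≤ (1 - δ) * ((∑ X ∈ cycles σ, (opened s σ cut X).length : ℕ) : ℚ) +
          δ * (Ω'.length : ℚ)) →
      IsSuperstring s A ∧ ∀ Ω : List α, IsSuperstring s Ω → (A.length : ℚ) ≤ (3 - δ) * Ω.length) := by
  refine ⟨fun X hX => opened_spec hne hcut hX, fun Ω hΩ => ⟨coverCost_le_length hne hfree hσ hΩ,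
    sum_overlap_le hne hfree hσ hcut hΩ, sum_opened_le hne hfree hσ hcut hΩ,
    exists_superstring_opened hne hfree hcut hΩ⟩, ?_⟩
  intro δ h0 h1 A hA hcomp
  refine ⟨fun i => ?_, fun Ω hΩ => ?_⟩
  · have hX := orbit_mem_cycles σ i
    exact ((opened_spec hne hcut hX).1 i (self_mem_orbit σ i)).trans (hA _ hX)
  · obtain ⟨Ω', hΩ', hlen⟩ := exists_superstring_opened hne hfree hcut hΩ
    have h2 := hcomp Ω' hΩ'
    have h3 := sum_opened_le hne hfree hσ hcut hΩ
    have h4 := coverCost_le_length hne hfree hσ hΩ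
    have h3' : ((∑ X ∈ cycles σ, (opened s σ cut X).length : ℕ) : ℚ) ≤
        (Ω.length : ℚ) + 2 * (coverCost s σ : ℚ) := by
      have : ∑ X ∈ cycles σ, (opened s σ cut X).length ≤ Ω.length + 2 * coverCost s σ := by omega
      exact_mod_cast this
    have hlen' : (Ω'.length : ℚ) ≤ (Ω.length : ℚ) + (coverCost s σ : ℚ) := by exact_mod_cast hlen
    have h4' : (coverCost s σ : ℚ) ≤ (Ω.length : ℚ) := by exact_mod_cast h4
    have h5 : (1 - δ) * ((∑ X ∈ cycles σ, (opened s σ cut X).length : ℕ) : ℚ) ≤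
        (1 - δ) * ((Ω.length : ℚ) + 2 * (coverCost s σ : ℚ)) :=
      mul_le_mul_of_nonneg_left h3' (by linarith)
    have h6 : δ * (Ω'.length : ℚ) ≤ δ * ((Ω.length : ℚ) + (coverCost s σ : ℚ)) :=
      mul_le_mul_of_nonneg_left hlen' h0
    have h7 : (2 - δ) * (coverCost s σ : ℚ) ≤ (2 - δ) * (Ω.length : ℚ) :=
      mul_le_mul_of_nonneg_left h4' (by linarith)
    nlinarith

end Vale.Agent.Results.P333.A_main
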